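import Mathlib

open Set Filter Topology MeasureTheory Cardinal

universe u

namespace Vale.Agent.P129

noncomputable def density (X : Type u) [TopologicalSpace X] : Cardinal.{u} :=
  sInf {κ | ∃ D : Set X, Dense D ∧ #D = κ}

noncomputable def covNull : Cardinal.{0} :=
  sInf {κ | ∃ G : Set (Set ℝ), #G = κ ∧ (∀ s ∈ G, volume s = 0) ∧ ⋃₀ G = Set.univ}

noncomputable def evDiff (b : ℕ → ℕ) : Cardinal.{0} :=
  sInf {κ | ∃ F : Set (ℕ → ℕ), #F = κ ∧ (∀ f ∈ F, ∀ k, f k < b k) ∧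
    ∀ y : ℕ → ℕ, (∀ k, y k < b k) → ∃ f ∈ F, ∃ᶠ k in atTop, f k = y k}

end Vale.Agent.P129
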