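import Mathlib

open Set Filter Topology

namespace Vale.Agent.P129

variable {𝕜 : Type*} [RCLike 𝕜]

theorem norm_sum_sq {ι : Type*} {H : Type*} [NormedAddCommGroup H] [InnerProductSpace 𝕜 H]
    {v : ι → H} (hv : Orthonormal 𝕜 v) (s : Finset ι) (a : ι → 𝕜) :
    ‖∑ i ∈ s, a i • v i‖ ^ 2 = ∑ i ∈ s, ‖a i‖ ^ 2 := by
  rw [@norm_sq_eq_re_inner 𝕜, hv.inner_sum, map_sum]
  apply Finset.sum_congr rfl
  intro i _
  rw [RCLike.conj_mul, ← RCLike.ofReal_pow, RCLike.ofReal_re]

theorem diag_bound {n : ℕ} (b : OrthonormalBasis (Fin n) 𝕜 (EuclideanSpace 𝕜 (Fin n)))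
    (s : Finset (Fin n)) (x : EuclideanSpace 𝕜 (Fin n)) :
    ‖∑ i ∈ s, inner 𝕜 (b i) x • b i‖ ≤ ‖x‖ := by
  have h1 : ‖∑ i ∈ s, inner 𝕜 (b i) x • b i‖ ^ 2 = ∑ i ∈ s, ‖inner 𝕜 (b i) x‖ ^ 2 := by
    exact norm_sum_sq b.orthonormal s _
  have h2 : ∑ i ∈ s, ‖inner 𝕜 (b i) x‖ ^ 2 ≤ ‖x‖ ^ 2 := b.orthonormal.sum_inner_products_le x
  have h3 : ‖∑ i ∈ s, inner 𝕜 (b i) x • b i‖ ^ 2 ≤ ‖x‖ ^ 2 := h1 ▸ h2
  exact (sq_le_sq₀ (norm_nonneg _) (norm_nonneg _)).1 h3

noncomputable def diagMap {n : ℕ} (b : OrthonormalBasis (Fin n) 𝕜 (EuclideanSpace 𝕜 (Fin n)))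
    (d : Fin n → 𝕜) : EuclideanSpace 𝕜 (Fin n) →L[𝕜] EuclideanSpace 𝕜 (Fin n) :=
  LinearMap.toContinuousLinearMap (Matrix.toLin b.toBasis b.toBasis (Matrix.diagonal d))

theorem diagMap_det {n : ℕ} (b : OrthonormalBasis (Fin n) 𝕜 (EuclideanSpace 𝕜 (Fin n)))
    (d : Fin n → 𝕜) : (diagMap b d).det = ∏ i, d i := by
  unfold diagMap
  rw [ContinuousLinearMap.det]
  simp [LinearMap.det_toLin]

theorem diagMap_apply {n : ℕ} (b : OrthonormalBasis (Fin n) 𝕜 (EuclideanSpace 𝕜 (Fin n)))
    (d : Fin n → 𝕜) (x : EuclideanSpace 𝕜 (Fin n)) :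
    diagMap b d x = ∑ i, (d i * inner 𝕜 (b i) x) • b i := by
  unfold diagMap
  simp only [LinearMap.coe_toContinuousLinearMap']
  rw [Matrix.toLin_apply]
  apply Finset.sum_congr rfl
  intro i _
  simp [Matrix.mulVec_diagonal, OrthonormalBasis.repr_apply_apply]

theorem exists_injective {Y : Type*} [NormedAddCommGroup Y] [NormedSpace 𝕜 Y]
    (hinf : ¬ FiniteDimensional 𝕜 Y) (n : ℕ) :
    ∃ L : EuclideanSpace 𝕜 (Fin n) →L[𝕜] Y, Function.Injective L := by
  classical
  let b := Module.Basis.ofVectorSpace 𝕜 Y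
  have hι : Infinite (Module.Basis.ofVectorSpaceIndex 𝕜 Y) := by
    by_contra h
    rw [not_infinite_iff_finite] at h
    exact hinf (Module.Finite.of_basis b)
  let e : Fin n ↪ Module.Basis.ofVectorSpaceIndex 𝕜 Y :=
    (Fin.valEmbedding).trans (Infinite.natEmbedding _)
  have hli : LinearIndependent 𝕜 (fun i => b (e i)) := b.linearIndependent.comp e e.injective
  let L0 : EuclideanSpace 𝕜 (Fin n) →ₗ[𝕜] Y :=
    (Fintype.linearCombination 𝕜 (fun i => b (e i))) ∘ₗ
      (WithLp.linearEquiv 2 𝕜 (Fin n → 𝕜)).toLinearMap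
  refine ⟨LinearMap.toContinuousLinearMap L0, ?_⟩
  have hinj : Function.Injective L0 := by
    have h1 : Function.Injective (Fintype.linearCombination 𝕜 (fun i => b (e i))) := by
      rw [← LinearMap.ker_eq_bot]
      exact LinearMap.ker_eq_bot'.2 (fun v hv => by
        have := Fintype.linearIndependent_iff.1 hli v (by simpa [Fintype.linearCombination_apply] using hv)
        ext i; exact this i)
    exact h1.comp (WithLp.linearEquiv 2 𝕜 (Fin n → 𝕜)).injective
  exact hinj


theorem exists_max {Y : Type*} [NormedAddCommGroup Y] [NormedSpace 𝕜 Y] {n : ℕ}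
    (L : EuclideanSpace 𝕜 (Fin n) →L[𝕜] Y) (hL : Function.Injective L) :
    ∃ A : EuclideanSpace 𝕜 (Fin n) →L[𝕜] EuclideanSpace 𝕜 (Fin n), ‖L.comp A‖ ≤ 1 ∧
      A.det ≠ 0 ∧ ∀ B : EuclideanSpace 𝕜 (Fin n) →L[𝕜] EuclideanSpace 𝕜 (Fin n),
        ‖L.comp B‖ ≤ 1 → ‖B.det‖ ≤ ‖A.det‖ := by
  set H := EuclideanSpace 𝕜 (Fin n) with hH
  obtain ⟨K, hK, hanti⟩ := LinearMap.exists_antilipschitzWith (L : H →ₗ[𝕜] Y)
    (LinearMap.ker_eq_bot.2 hL)
  have hanti' : ∀ x : H, ‖x‖ ≤ K * ‖L x‖ := fun x => by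
    have := hanti.le_mul_dist x 0
    simpa using this
  let S : Set (H →L[𝕜] H) := {A | ‖L.comp A‖ ≤ 1}
  have hSc : IsClosed S := by
    apply isClosed_le _ continuous_const
    exact ((ContinuousLinearMap.compL 𝕜 H H Y L).continuous).norm
  have hSb : Bornology.IsBounded S := by
    rw [isBounded_iff_forall_norm_le]
    refine ⟨K, fun A hA => ?_⟩
    refine A.opNorm_le_bound K.2 (fun x => ?_)
    calc ‖A x‖ ≤ K * ‖L (A x)‖ := hanti' _
      _ ≤ K * (1 * ‖x‖) := by
        apply mul_le_mul_of_nonneg_left _ K.2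
        exact ((L.comp A).le_opNorm x).trans (mul_le_mul_of_nonneg_right hA (norm_nonneg _))
      _ = K * ‖x‖ := by ring
  have : ProperSpace (H →L[𝕜] H) := FiniteDimensional.proper_rclike 𝕜 (H →L[𝕜] H)
  have hScomp : IsCompact S := Metric.isCompact_of_isClosed_isBounded hSc hSb
  have hSne : S.Nonempty := ⟨0, by simp [S]⟩
  obtain ⟨A, hA, hmax⟩ := hScomp.exists_isMaxOn hSne
    (f := fun A : H →L[𝕜] H => ‖A.det‖) (ContinuousLinearMap.continuous_det.norm.continuousOn)
  refine ⟨A, hA, ?_, fun B hB => hmax hB⟩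
  set c : ℝ := 1 / (‖L‖ + 1) with hc
  have hcpos : 0 < c := by positivity
  have hmem : ((c : 𝕜) • ContinuousLinearMap.id 𝕜 H) ∈ S := by
    show ‖L.comp ((c : 𝕜) • ContinuousLinearMap.id 𝕜 H)‖ ≤ 1
    rw [ContinuousLinearMap.comp_smul, ContinuousLinearMap.comp_id, norm_smul,
      RCLike.norm_ofReal, abs_of_pos hcpos, hc, div_mul_eq_mul_div, one_mul,
      div_le_one (by positivity)]
    linarith
  have h1 := hmax hmem
  have h2 : ‖((c : 𝕜) • ContinuousLinearMap.id 𝕜 H).det‖ = c ^ n := by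
    have : ((c : 𝕜) • ContinuousLinearMap.id 𝕜 H).det = (c : 𝕜) ^ n := by
      have h5 : ((((c : 𝕜) • ContinuousLinearMap.id 𝕜 H : H →L[𝕜] H)) : H →ₗ[𝕜] H)
          = (c : 𝕜) • LinearMap.id := rfl
      rw [ContinuousLinearMap.det, h5, LinearMap.det_smul]
      rw [LinearMap.det_id, mul_one, finrank_euclideanSpace_fin]
    rw [this, norm_pow, RCLike.norm_ofReal, abs_of_pos hcpos]
  have h3 : 0 < ‖A.det‖ := by
    have h4 : ‖((c : 𝕜) • ContinuousLinearMap.id 𝕜 H).det‖ ≤ ‖A.det‖ := h1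
    rw [h2] at h4
    exact lt_of_lt_of_le (by positivity) h4
  exact norm_pos_iff.1 h3

theorem exists_orthonormal {Y : Type*} [NormedAddCommGroup Y] [NormedSpace 𝕜 Y] {m : ℕ}
    (L : EuclideanSpace 𝕜 (Fin (2 * m)) →L[𝕜] Y)
    (A : EuclideanSpace 𝕜 (Fin (2 * m)) →L[𝕜] EuclideanSpace 𝕜 (Fin (2 * m)))
    (hA : ‖L.comp A‖ ≤ 1) (hdet : A.det ≠ 0)
    (hmax : ∀ B : EuclideanSpace 𝕜 (Fin (2 * m)) →L[𝕜] EuclideanSpace 𝕜 (Fin (2 * m)),
        ‖L.comp B‖ ≤ 1 → ‖B.det‖ ≤ ‖A.det‖) (k : ℕ) (hk : k ≤ m) :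
    ∃ v : Fin (2 * m) → EuclideanSpace 𝕜 (Fin (2 * m)),
      Orthonormal 𝕜 (({i | i.val < k} : Set (Fin (2 * m))).domRestrict v) ∧
      ∀ i : Fin (2 * m), i.val < k → 2 / 5 ≤ ‖L (A (v i))‖ := by
  classical
  induction k with
  | zero =>
    refine ⟨fun _ => 0, ?_, fun i hi => absurd hi (Nat.not_lt_zero _)⟩
    have : IsEmpty ({i : Fin (2 * m) | i.val < 0} : Set (Fin (2 * m))) := by
      constructor; rintro ⟨i, hi⟩; exact Nat.not_lt_zero _ hi
    exact ⟨fun i => this.elim i, fun i => this.elim i⟩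
  | succ k ih =>
    obtain ⟨v, hv, hv2⟩ := ih (by omega)
    obtain ⟨b, hb⟩ := hv.exists_orthonormalBasis_extension_of_card_eq (by simp)
    have hb' : ∀ i : Fin (2 * m), i.val < k → b i = v i := fun i hi => hb i hi
    by_cases hex : ∃ w : EuclideanSpace 𝕜 (Fin (2 * m)), ‖w‖ = 1 ∧
        (∀ i : Fin (2 * m), i.val < k → inner 𝕜 (b i) w = 0) ∧ 2 / 5 ≤ ‖L (A w)‖
    · obtain ⟨w, hw1, hw2, hw3⟩ := hex
      have hk2 : k < 2 * m := by omega
      refine ⟨Function.update v ⟨k, hk2⟩ w, ?_, ?_⟩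
      · rw [orthonormal_iff_ite]
        rintro ⟨i, hi⟩ ⟨j, hj⟩
        have hi' : i.val < k + 1 := hi
        have hj' : j.val < k + 1 := hj
        simp only [Set.domRestrict_apply, Subtype.mk.injEq]
        by_cases hik : i = ⟨k, hk2⟩
        · by_cases hjk : j = ⟨k, hk2⟩
          · subst hik; subst hjk
            simp [hw1]
          · subst hik
            have hjlt : j.val < k := by
              rcases Nat.lt_succ_iff_lt_or_eq.1 hj' with h | h
              · exact h
              · exact absurd (Fin.ext h) hjk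
            rw [Function.update_self, Function.update_of_ne hjk, ← hb' j hjlt,
              if_neg (fun h => hjk h.symm), ← inner_conj_symm, hw2 j hjlt]
            simp
        · have hilt : i.val < k := by
            rcases Nat.lt_succ_iff_lt_or_eq.1 hi' with h | h
            · exact h
            · exact absurd (Fin.ext h) hik
          by_cases hjk : j = ⟨k, hk2⟩
          · subst hjk
            rw [Function.update_self, Function.update_of_ne hik, ← hb' i hilt,
              if_neg hik, hw2 i hilt]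
          · have hjlt : j.val < k := by
              rcases Nat.lt_succ_iff_lt_or_eq.1 hj' with h | h
              · exact h
              · exact absurd (Fin.ext h) hjk
            rw [Function.update_of_ne hik, Function.update_of_ne hjk, ← hb' i hilt,
              ← hb' j hjlt, orthonormal_iff_ite.1 b.orthonormal i j]
      · intro i hi
        by_cases hik : i = ⟨k, hk2⟩
        · subst hik; rw [Function.update_self]; exact hw3
        · have hilt : i.val < k := by
            rcases Nat.lt_succ_iff_lt_or_eq.1 hi with h | h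
            · exact h
            · exact absurd (Fin.ext h) hik
          rw [Function.update_of_ne hik]; exact hv2 i hilt
    · exfalso
      push Not at hex
      have hle : ∀ w : EuclideanSpace 𝕜 (Fin (2 * m)),
          (∀ i : Fin (2 * m), i.val < k → inner 𝕜 (b i) w = 0) → ‖L (A w)‖ ≤ 2 / 5 * ‖w‖ := by
        intro w hw
        by_cases hw0 : w = 0
        · simp [hw0]
        · have hwn : 0 < ‖w‖ := norm_pos_iff.2 hw0
          have h1 := hex (((‖w‖⁻¹ : ℝ) : 𝕜) • w) (by
            rw [norm_smul, RCLike.norm_ofReal, abs_of_pos (by positivity)]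
            field_simp) (by
            intro i hi
            rw [inner_smul_right, hw i hi, mul_zero])
          rw [map_smul, map_smul, norm_smul, RCLike.norm_ofReal, abs_of_pos (by positivity),
            inv_mul_lt_iff₀ hwn] at h1
          linarith
      let d : Fin (2 * m) → 𝕜 := fun i => if i.val < k then 1 else 2
      let U := diagMap b d
      have hUx : ∀ x, U x = x + ∑ i ∈ Finset.univ.filter (fun i : Fin (2 * m) => ¬ i.val < k),
          inner 𝕜 (b i) x • b i := by
        intro x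
        have h1 : x = ∑ i, inner 𝕜 (b i) x • b i := (b.sum_repr' x).symm
        show diagMap b d x = _
        rw [diagMap_apply]
        nth_rewrite 2 [h1]
        rw [Finset.sum_filter, ← Finset.sum_add_distrib]
        apply Finset.sum_congr rfl
        intro i _
        by_cases hi : i.val < k
        · simp [d, hi]
        · simp only [d, hi, if_false, not_false_eq_true, if_true]
          rw [← add_smul]; congr 1; ring
      have hbound : ∀ x, ‖L (A (U x))‖ ≤ 7 / 5 * ‖x‖ := by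
        intro x
        rw [hUx, map_add, map_add]
        have h1 : ‖L (A x)‖ ≤ ‖x‖ := by
          have := (L.comp A).le_opNorm x
          refine this.trans ?_
          have h2 := mul_le_mul_of_nonneg_right hA (norm_nonneg x)
          linarith
        have h2 := hle (∑ i ∈ Finset.univ.filter (fun i : Fin (2 * m) => ¬ i.val < k),
          inner 𝕜 (b i) x • b i) (by
            intro i hi
            rw [inner_sum]
            apply Finset.sum_eq_zero
            intro j hj
            have hj' : ¬ j.val < k := (Finset.mem_filter.1 hj).2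
            rw [inner_smul_right, orthonormal_iff_ite.1 b.orthonormal i j, if_neg, mul_zero]
            rintro rfl; exact hj' hi)
        have h3 := diag_bound b (Finset.univ.filter (fun i : Fin (2 * m) => ¬ i.val < k)) x
        refine (norm_add_le _ _).trans ?_
        linarith
      have hB : ‖L.comp (((5 / 7 : ℝ) : 𝕜) • (A.comp U))‖ ≤ 1 := by
        refine ContinuousLinearMap.opNorm_le_bound _ zero_le_one (fun x => ?_)
        have h1 : (L.comp (((5 / 7 : ℝ) : 𝕜) • (A.comp U))) x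
            = ((5 / 7 : ℝ) : 𝕜) • L (A (U x)) := by simp
        rw [h1, norm_smul, RCLike.norm_ofReal, abs_of_pos (by norm_num)]
        have := hbound x
        linarith
      have h1 := hmax _ hB
      have h2 : ((((5 / 7 : ℝ) : 𝕜) • (A.comp U))).det
          = ((5 / 7 : ℝ) : 𝕜) ^ (2 * m) * (A.det * U.det) := by
        have h5 : (((((5 / 7 : ℝ) : 𝕜) • (A.comp U)) :
            EuclideanSpace 𝕜 (Fin (2 * m)) →L[𝕜] EuclideanSpace 𝕜 (Fin (2 * m))) :
            EuclideanSpace 𝕜 (Fin (2 * m)) →ₗ[𝕜] EuclideanSpace 𝕜 (Fin (2 * m)))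
            = ((5 / 7 : ℝ) : 𝕜) • ((A : EuclideanSpace 𝕜 (Fin (2 * m)) →ₗ[𝕜] _) ∘ₗ
              (U : EuclideanSpace 𝕜 (Fin (2 * m)) →ₗ[𝕜] _)) := rfl
        rw [ContinuousLinearMap.det, h5, LinearMap.det_smul, finrank_euclideanSpace_fin,
          LinearMap.det_comp]
      have h3 : U.det = 2 ^ (2 * m - k) := by
        show (diagMap b d).det = _
        rw [diagMap_det, Finset.prod_ite]
        simp only [Finset.prod_const, one_pow, one_mul]
        congr 1
        have h6 : (Finset.univ.filter (fun i : Fin (2 * m) => ¬ i.val < k)).card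
            + (Finset.univ.filter (fun i : Fin (2 * m) => i.val < k)).card = 2 * m := by
          rw [add_comm, Finset.card_filter_add_card_filter_not]; simp
        have h7 : (Finset.univ.filter (fun i : Fin (2 * m) => i.val < k)).card = k := by
          rw [Fin.card_filter_val_lt]
          omega
        omega
      rw [h2, h3, norm_mul, norm_mul, norm_pow, RCLike.norm_ofReal, abs_of_pos (by norm_num),
        norm_pow] at h1
      have h4 : ‖(2 : 𝕜)‖ = 2 := by simp
      rw [h4] at h1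
      have hdpos : 0 < ‖A.det‖ := norm_pos_iff.2 hdet
      have h8 : (5 / 7 : ℝ) ^ (2 * m) * 2 ^ (2 * m - k) ≤ 1 := by
        by_contra hcon
        push Not at hcon
        have : ‖A.det‖ < (5 / 7 : ℝ) ^ (2 * m) * (‖A.det‖ * 2 ^ (2 * m - k)) := by
          nlinarith
        linarith
      have h9 : (2 : ℝ) ^ (m + 1) ≤ 2 ^ (2 * m - k) :=
        pow_le_pow_right₀ (by norm_num) (by omega)
      have h10 : (1 : ℝ) < (5 / 7 : ℝ) ^ (2 * m) * 2 ^ (m + 1) := by
        have h12 : (5 / 7 : ℝ) ^ (2 * m) * 2 ^ (m + 1) = ((5 / 7) ^ 2 * 2) ^ m * 2 := by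
          rw [mul_pow, pow_mul, pow_succ (2 : ℝ) m]; ring
        rw [h12]
        have : (1 : ℝ) ≤ ((5 / 7) ^ 2 * 2) ^ m := one_le_pow₀ (by norm_num)
        linarith
      have h11 : (5 / 7 : ℝ) ^ (2 * m) * 2 ^ (m + 1) ≤ (5 / 7 : ℝ) ^ (2 * m) * 2 ^ (2 * m - k) :=
        mul_le_mul_of_nonneg_left h9 (by positivity)
      linarith

theorem dvoretzky_rogers {Y : Type*} [NormedAddCommGroup Y] [NormedSpace 𝕜 Y]
    (hinf : ¬ FiniteDimensional 𝕜 Y) (m : ℕ) :
    ∃ f : Fin m → Y, (∀ i, 2 / 5 ≤ ‖f i‖) ∧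
      ∀ a : Fin m → 𝕜, ‖∑ i, a i • f i‖ ^ 2 ≤ ∑ i, ‖a i‖ ^ 2 := by
  classical
  obtain ⟨L, hL⟩ := exists_injective hinf (2 * m)
  obtain ⟨A, hA, hdet, hmax⟩ := exists_max L hL
  obtain ⟨v, hv, hv2⟩ := exists_orthonormal L A hA hdet hmax m le_rfl
  let e : Fin m → Fin (2 * m) := fun i => ⟨i.val, by omega⟩
  refine ⟨fun i => L (A (v (e i))), fun i => hv2 _ i.2, fun a => ?_⟩
  have hv' : Orthonormal 𝕜 (fun i : Fin m => v (e i)) := by
    let e' : Fin m → ({i | i.val < m} : Set (Fin (2 * m))) := fun i => ⟨e i, i.2⟩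
    have he' : Function.Injective e' := by
      intro i j hij
      have : (e i).val = (e j).val := by
        have := congrArg (fun z : ({i | i.val < m} : Set (Fin (2 * m))) => z.1.1) hij
        exact this
      exact Fin.ext this
    exact hv.comp e' he'
  have h1 : ∑ i, a i • L (A (v (e i))) = (L.comp A) (∑ i, a i • v (e i)) := by
    rw [map_sum]
    simp
  rw [h1, ← norm_sum_sq hv' Finset.univ a]
  have h2 : ‖(L.comp A) (∑ i, a i • v (e i))‖ ≤ ‖∑ i, a i • v (e i)‖ := by
    refine ((L.comp A).le_opNorm _).trans ?_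
    have h2 := mul_le_mul_of_nonneg_right hA (norm_nonneg (∑ i, a i • v (e i)))
    linarith
  exact pow_le_pow_left₀ (norm_nonneg _) h2 2

end Vale.Agent.P129
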