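import Mathlib

open Set Filter Topology

namespace Vale.Agent.P129

variable {𝕜 : Type*} [RCLike 𝕜] {X : Type*} [NormedAddCommGroup X] [NormedSpace 𝕜 X]

theorem exists_proj (E : Submodule 𝕜 X) (hE : Dense (E : Set X)) (G : Finset (X →L[𝕜] 𝕜)) :
    ∃ Q : X →L[𝕜] X, (∀ g ∈ G, ∀ y, g (Q y) = 0) ∧ ∀ y, y - Q y ∈ E := by
  classical
  induction G using Finset.induction_on with
  | empty => exact ⟨ContinuousLinearMap.id 𝕜 X, by simp, by simp⟩
  | insert g G hg ih =>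
    obtain ⟨Q, hQ1, hQ2⟩ := ih
    by_cases h0 : ∀ y, g (Q y) = 0
    · refine ⟨Q, ?_, hQ2⟩
      intro g' hg' y
      rcases Finset.mem_insert.1 hg' with h | h
      · rw [h]; exact h0 y
      · exact hQ1 g' h y
    · push Not at h0
      obtain ⟨y0, hy0⟩ := h0
      have hopen : IsOpen {y : X | g (Q y) ≠ 0} :=
        isOpen_ne_fun (g.continuous.comp Q.continuous) continuous_const
      obtain ⟨e, he, heE⟩ := hE.exists_mem_open hopen ⟨y0, hy0⟩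
      have hQe : Q e ∈ E := by
        have := E.sub_mem he (hQ2 e)
        simpa using this
      refine ⟨Q - (g.comp Q).smulRight ((g (Q e))⁻¹ • Q e), ?_, ?_⟩
      · intro g' hg' y
        rcases Finset.mem_insert.1 hg' with h | h
        · subst h
          have : g' (Q e) ≠ 0 := heE
          simp [this]
        · simp [hQ1 g' h]
      · intro y
        have : y - (Q - (g.comp Q).smulRight ((g (Q e))⁻¹ • Q e)) y
            = (y - Q y) + g (Q y) • ((g (Q e))⁻¹ • Q e) := by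
          simp; abel
        rw [this]
        exact E.add_mem (hQ2 y) (E.smul_mem _ (E.smul_mem _ hQe))

theorem exists_step [CompleteSpace X] (E : Submodule 𝕜 X) (hE : Dense (E : Set X))
    (u : ℕ → X →L[𝕜] 𝕜) (hu : ∀ x ∈ E, Tendsto (fun k => u k x) atTop (𝓝 0))
    (hunb : ¬ ∃ C : ℝ, ∀ k, ‖u k‖ ≤ C) (G : Finset (X →L[𝕜] 𝕜)) (S : Finset X)
    (hS : ∀ s ∈ S, s ∈ E) {ε η : ℝ} (hε : 0 < ε) (hη : 0 < η) :
    ∃ k, ∃ x ∈ E, (∀ g ∈ G, g x = 0) ∧ u k x = 1 ∧ ‖x‖ ≤ η ∧ ∀ s ∈ S, ‖u k s‖ ≤ ε := by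
  obtain ⟨Q, hQ1, hQ2⟩ := exists_proj E hE G
  have hev : ∀ᶠ k in atTop, ∀ s ∈ S, ‖u k s‖ ≤ ε := by
    rw [Filter.eventually_all_finset]
    intro s hs
    have := (hu s (hS s hs)).norm
    simp only [norm_zero] at this
    exact (this.eventually (eventually_le_nhds hε))
  obtain ⟨K, hK⟩ := eventually_atTop.1 hev
  set R : ℝ := (‖Q‖ + 1) / η with hR
  have hRpos : 0 < R := by positivity
  have key : ∃ k ≥ K, ∃ y : X, R * ‖y‖ < ‖u k (Q y)‖ := by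
    by_contra hcon
    push Not at hcon
    apply hunb
    apply banach_steinhaus (g := u)
    intro y
    have hb1 : ∃ C : ℝ, ∀ k, ‖u k (y - Q y)‖ ≤ C := by
      have := (hu _ (hQ2 y)).norm.bddAbove_range
      obtain ⟨C, hC⟩ := this
      exact ⟨C, fun k => hC ⟨k, rfl⟩⟩
    obtain ⟨C, hC⟩ := hb1
    have hb2 : ∃ C' : ℝ, ∀ k, ‖u k (Q y)‖ ≤ C' := by
      refine ⟨R * ‖y‖ + ∑ k ∈ Finset.range K, ‖u k (Q y)‖, fun k => ?_⟩
      by_cases hk : K ≤ k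
      · have h1 := hcon k hk y
        have h2 : 0 ≤ ∑ k ∈ Finset.range K, ‖u k (Q y)‖ :=
          Finset.sum_nonneg (fun _ _ => norm_nonneg _)
        linarith
      · have h1 : ‖u k (Q y)‖ ≤ ∑ k ∈ Finset.range K, ‖u k (Q y)‖ :=
          Finset.single_le_sum (f := fun k => ‖u k (Q y)‖) (fun _ _ => norm_nonneg _)
            (Finset.mem_range.2 (not_le.1 hk))
        have h2 : 0 ≤ R * ‖y‖ := by positivity
        linarith
    obtain ⟨C', hC'⟩ := hb2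
    refine ⟨C + C', fun k => ?_⟩
    have : u k y = u k (y - Q y) + u k (Q y) := by rw [← map_add]; simp
    rw [this]
    exact (norm_add_le _ _).trans (add_le_add (hC k) (hC' k))
  obtain ⟨k, hk, y0, hy0⟩ := key
  have hopen : IsOpen {y : X | R * ‖y‖ < ‖u k (Q y)‖} :=
    isOpen_lt (by fun_prop) (by fun_prop)
  obtain ⟨y, hyE, hy⟩ := hE.exists_mem_open hopen ⟨y0, hy0⟩
  have hy' : R * ‖y‖ < ‖u k (Q y)‖ := hy
  have hpos : 0 < ‖u k (Q y)‖ := lt_of_le_of_lt (by positivity) hy'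
  have hne : u k (Q y) ≠ 0 := norm_pos_iff.1 hpos
  have hQy : Q y ∈ E := by
    have := E.sub_mem hyE (hQ2 y)
    simpa using this
  refine ⟨k, (u k (Q y))⁻¹ • Q y, E.smul_mem _ hQy, ?_, ?_, ?_, hK k hk⟩
  · intro g hg
    simp [hQ1 g hg]
  · simp [hne]
  · rw [norm_smul, norm_inv]
    have h1 : ‖Q y‖ ≤ ‖Q‖ * ‖y‖ := Q.le_opNorm y
    have h2 : ‖Q‖ * ‖y‖ ≤ η * ‖u k (Q y)‖ := by
      have h3 : (‖Q‖ + 1) * ‖y‖ = η * (R * ‖y‖) := by
        rw [hR]; field_simp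
      have h4 : ‖Q‖ * ‖y‖ ≤ (‖Q‖ + 1) * ‖y‖ := by
        apply mul_le_mul_of_nonneg_right _ (norm_nonneg _); linarith
      calc ‖Q‖ * ‖y‖ ≤ (‖Q‖ + 1) * ‖y‖ := h4
        _ = η * (R * ‖y‖) := h3
        _ ≤ η * ‖u k (Q y)‖ := by
          apply mul_le_mul_of_nonneg_left hy'.le hη.le
    rw [inv_mul_le_iff₀ hpos]
    linarith

theorem exists_system [CompleteSpace X] (E : Submodule 𝕜 X) (hE : Dense (E : Set X))
    (u : ℕ → X →L[𝕜] 𝕜) (hu : ∀ x ∈ E, Tendsto (fun k => u k x) atTop (𝓝 0))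
    (hunb : ¬ ∃ C : ℝ, ∀ k, ‖u k‖ ≤ C) :
    ∃ (κ : ℕ → ℕ) (x : ℕ → X), (∀ j, x j ∈ E) ∧ (∀ j, u (κ j) (x j) = 1) ∧
      (∀ j, ‖x j‖ ≤ (1 / 2 : ℝ) ^ j) ∧ (∀ i j, i < j → u (κ i) (x j) = 0) ∧
      (∀ i j, i < j → ‖u (κ j) (x i)‖ ≤ 1 / (2 * ((j : ℝ) + 1))) := by
  classical
  have := exists_seq_of_forall_finset_exists (α := ℕ × ℕ × X)
    (fun a => u a.2.1 a.2.2 = 1 ∧ a.2.2 ∈ E ∧ ‖a.2.2‖ ≤ (1 / 2 : ℝ) ^ a.1)
    (fun a a' => a.1 < a'.1 ∧ u a.2.1 a'.2.2 = 0 ∧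
      ‖u a'.2.1 a.2.2‖ ≤ 1 / (2 * ((a'.1 : ℝ) + 1))) ?_
  · obtain ⟨f, hf1, hf2⟩ := this
    have hmono : ∀ n, n ≤ (f n).1 := by
      intro n
      have : StrictMono (fun n => (f n).1) := fun a b hab => (hf2 a b hab).1
      exact this.le_apply
    refine ⟨fun j => (f j).2.1, fun j => (f j).2.2, fun j => (hf1 j).2.1, fun j => (hf1 j).1,
      fun j => ?_, fun i j hij => (hf2 i j hij).2.1, fun i j hij => ?_⟩
    · exact (hf1 j).2.2.trans (pow_le_pow_of_le_one (by norm_num) (by norm_num) (hmono j))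
    · refine (hf2 i j hij).2.2.trans ?_
      have h1 : (j : ℝ) ≤ ((f j).1 : ℝ) := by exact_mod_cast hmono j
      apply one_div_le_one_div_of_le (by positivity)
      linarith
  · intro s hs
    obtain ⟨N, hN⟩ : ∃ N : ℕ, ∀ a ∈ s, a.1 < N := by
      refine ⟨s.sup (fun a => a.1) + 1, fun a ha => ?_⟩
      exact Nat.lt_succ_of_le (Finset.le_sup (f := fun a : ℕ × ℕ × X => a.1) ha)
    obtain ⟨k, x, hxE, hx1, hx2, hx3, hx4⟩ := exists_step E hE u hu hunb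
      (s.image (fun a => u a.2.1)) (s.image (fun a => a.2.2))
      (by
        intro y hy
        obtain ⟨a, ha, rfl⟩ := Finset.mem_image.1 hy
        exact (hs a ha).2.1)
      (ε := 1 / (2 * ((N : ℝ) + 1))) (η := (1 / 2 : ℝ) ^ N) (by positivity) (by positivity)
    refine ⟨(N, k, x), ⟨hx2, hxE, hx3⟩, fun a ha => ⟨hN a ha, ?_, ?_⟩⟩
    · exact hx1 _ (Finset.mem_image_of_mem _ ha)
    · exact hx4 _ (Finset.mem_image_of_mem _ ha)

end Vale.Agent.P129
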