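import Mathlib

open Set Filter Topology TopologicalSpace

namespace Vale.Agent.P129

variable {𝕜 : Type*} [RCLike 𝕜] {X : Type*} [NormedAddCommGroup X] [NormedSpace 𝕜 X]

noncomputable def iter (g : ℕ → X →L[𝕜] 𝕜) (x : ℕ → X) (y : X) : ℕ → X
  | 0 => y
  | (j + 1) => iter g x y j - g j (iter g x y j) • x j

theorem iter_eq (g : ℕ → X →L[𝕜] 𝕜) (x : ℕ → X) (y : X) (j : ℕ) :
    iter g x y j = y - ∑ i ∈ Finset.range j, g i (iter g x y i) • x i := by
  induction j with
  | zero => simp [iter]
  | succ j ih =>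
    rw [Finset.sum_range_succ, iter]
    nth_rewrite 1 [ih]
    abel

theorem iter_zero_of_lt (g : ℕ → X →L[𝕜] 𝕜) (x : ℕ → X) (y : X)
    (h1 : ∀ j, g j (x j) = 1) (h0 : ∀ i j, i < j → g i (x j) = 0) (i j : ℕ) (hij : i < j) :
    g i (iter g x y j) = 0 := by
  induction j with
  | zero => omega
  | succ j ih =>
    rw [iter, map_sub, map_smul]
    rcases Nat.lt_succ_iff_lt_or_eq.1 hij with h | h
    · rw [ih h, h0 i j h]; simp
    · subst h; rw [h1]; simp

theorem iter_bound (g : ℕ → X →L[𝕜] 𝕜) (x : ℕ → X) (y : X) (s : ℝ)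
    (hs : ∀ j, ‖g j y‖ ≤ s)
    (h2 : ∀ i j, i < j → ‖g j (x i)‖ ≤ 1 / (2 * ((j : ℝ) + 1))) (j : ℕ) :
    ‖g j (iter g x y j)‖ ≤ 2 * s := by
  have hs0 : 0 ≤ s := (norm_nonneg _).trans (hs 0)
  induction j using Nat.strong_induction_on with
  | _ j ih =>
    rw [iter_eq, map_sub, map_sum]
    have hb : ‖∑ i ∈ Finset.range j, g j (g i (iter g x y i) • x i)‖ ≤ s := by
      calc ‖∑ i ∈ Finset.range j, g j (g i (iter g x y i) • x i)‖
          ≤ ∑ i ∈ Finset.range j, ‖g j (g i (iter g x y i) • x i)‖ := norm_sum_le _ _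
        _ ≤ ∑ i ∈ Finset.range j, (2 * s) * (1 / (2 * ((j : ℝ) + 1))) := by
            apply Finset.sum_le_sum
            intro i hi
            rw [map_smul, norm_smul]
            exact mul_le_mul (ih i (Finset.mem_range.1 hi)) (h2 i j (Finset.mem_range.1 hi))
              (norm_nonneg _) (by positivity)
        _ = (j : ℝ) * ((2 * s) * (1 / (2 * ((j : ℝ) + 1)))) := by simp
        _ ≤ s := by
            have : (j : ℝ) * ((2 * s) * (1 / (2 * ((j : ℝ) + 1)))) = s * (j / (j + 1)) := by
              field_simp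
            rw [this]
            have h3 : (j : ℝ) / (j + 1) ≤ 1 := by
              rw [div_le_one (by positivity)]; linarith
            nlinarith
    calc ‖g j y - ∑ i ∈ Finset.range j, g j (g i (iter g x y i) • x i)‖
        ≤ ‖g j y‖ + ‖∑ i ∈ Finset.range j, g j (g i (iter g x y i) • x i)‖ := norm_sub_le _ _
      _ ≤ s + s := add_le_add (hs j) hb
      _ = 2 * s := by ring

theorem exists_quotient [CompleteSpace X] (E : Submodule 𝕜 X) (hE : Dense (E : Set X))
    (g : ℕ → X →L[𝕜] 𝕜) (x : ℕ → X) (hb : ∀ y ∈ E, ∃ C : ℝ, ∀ j, ‖g j y‖ ≤ C)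
    (h1 : ∀ j, g j (x j) = 1) (hx : ∀ j, ‖x j‖ ≤ (1 / 2 : ℝ) ^ j)
    (h0 : ∀ i j, i < j → g i (x j) = 0)
    (h2 : ∀ i j, i < j → ‖g j (x i)‖ ≤ 1 / (2 * ((j : ℝ) + 1))) :
    ∃ M : Submodule 𝕜 X, IsClosed (M : Set X) ∧ SeparableSpace (X ⧸ M) ∧
      ¬ FiniteDimensional 𝕜 (X ⧸ M) := by
  set M : Submodule 𝕜 X := ⨅ j, LinearMap.ker (g j : X →ₗ[𝕜] 𝕜) with hM
  have memM : ∀ y, y ∈ M ↔ ∀ j, g j y = 0 := by
    intro y; simp [hM, Submodule.mem_iInf]
  have hclosed : IsClosed (M : Set X) := by
    have : (M : Set X) = ⋂ j, {y | g j y = 0} := by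
      ext y; simp [memM]
    rw [this]
    exact isClosed_iInter fun j => isClosed_eq (g j).continuous continuous_const
  refine ⟨M, hclosed, ?_, ?_⟩
  · rw [← isSeparable_univ_iff]
    have hsep : IsSeparable (Submodule.span 𝕜 (range fun i => M.mkQ (x i)) : Set (X ⧸ M)) :=
      IsSeparable.span (countable_range _).isSeparable
    refine hsep.closure.mono ?_
    have hcont : Continuous (M.mkQ : X → X ⧸ M) := by
      exact continuous_quot_mk
    have hdense : Dense (M.mkQ '' (E : Set X)) :=
      (M.mkQ_surjective.denseRange).dense_image hcont hE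
    intro z _
    have hz : z ∈ closure (M.mkQ '' (E : Set X)) := hdense z
    refine closure_minimal ?_ isClosed_closure hz
    rintro _ ⟨y, hy, rfl⟩
    obtain ⟨s, hs⟩ := hb y hy
    have hs0 : 0 ≤ s := (norm_nonneg _).trans (hs 0)
    have hsum : Summable fun i => g i (iter g x y i) • x i := by
      refine Summable.of_norm_bounded (g := fun i => (2 * s) * (1 / 2 : ℝ) ^ i)
        ((summable_geometric_of_lt_one (by norm_num) (by norm_num)).mul_left _) (fun i => ?_)
      rw [norm_smul]
      exact mul_le_mul (iter_bound g x y s hs h2 i) (hx i) (norm_nonneg _) (by positivity)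
    set w := ∑' i, g i (iter g x y i) • x i with hw
    have hlim : Tendsto (fun n => ∑ i ∈ Finset.range n, g i (iter g x y i) • x i) atTop (𝓝 w) :=
      hsum.hasSum.tendsto_sum_nat
    have hyw : y - w ∈ M := by
      rw [memM]
      intro j
      have ht : Tendsto (fun n => g j (iter g x y n)) atTop (𝓝 (g j (y - w))) := by
        have : Tendsto (fun n => iter g x y n) atTop (𝓝 (y - w)) := by
          have h5 := (tendsto_const_nhds (x := y)).sub hlim
          refine h5.congr (fun n => ?_)
          exact (iter_eq g x y n).symm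
        exact ((g j).continuous.tendsto _).comp this
      have ht2 : Tendsto (fun n => g j (iter g x y n)) atTop (𝓝 0) := by
        apply tendsto_const_nhds.congr'
        filter_upwards [eventually_gt_atTop j] with n hn
        rw [iter_zero_of_lt g x y h1 h0 j n hn]
      exact tendsto_nhds_unique ht ht2
    have heq : M.mkQ y = M.mkQ w := by
      rw [← sub_eq_zero, ← map_sub]
      exact (Submodule.Quotient.mk_eq_zero M).2 hyw
    rw [heq]
    have hlim2 : Tendsto (fun n => M.mkQ (∑ i ∈ Finset.range n, g i (iter g x y i) • x i)) atTop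
        (𝓝 (M.mkQ w)) := (hcont.tendsto _).comp hlim
    refine mem_closure_of_tendsto hlim2 (Eventually.of_forall fun n => ?_)
    rw [map_sum]
    refine Submodule.sum_mem _ (fun i _ => ?_)
    rw [map_smul]
    exact Submodule.smul_mem _ _ (Submodule.subset_span ⟨i, rfl⟩)
  · intro hfin
    have hli : LinearIndependent 𝕜 (fun i => M.mkQ (x i)) := by
      rw [linearIndependent_iff']
      intro s a ha
      by_contra hcon
      push Not at hcon
      obtain ⟨i0, hi0, hai0⟩ := hcon
      let t := s.filter (fun i => a i ≠ 0)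
      have ht : t.Nonempty := ⟨i0, by simp [t, hi0, hai0]⟩
      set m := t.min' ht with hm
      have hmt : m ∈ t := t.min'_mem ht
      have hms : m ∈ s := (Finset.mem_filter.1 hmt).1
      have ham : a m ≠ 0 := (Finset.mem_filter.1 hmt).2
      have hmem : (∑ i ∈ s, a i • x i) ∈ M := by
        have : M.mkQ (∑ i ∈ s, a i • x i) = 0 := by
          rw [map_sum]; simpa using ha
        exact (Submodule.Quotient.mk_eq_zero M).1 this
      have := (memM _).1 hmem m
      rw [map_sum, Finset.sum_eq_single m] at this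
      · rw [map_smul, h1] at this
        simp at this
        exact ham this
      · intro i his him
        rw [map_smul]
        by_cases hi : a i = 0
        · simp [hi]
        · have hmi : m ≤ i := t.min'_le i (by simp [t, his, hi])
          have : m < i := lt_of_le_of_ne hmi (Ne.symm him)
          rw [h0 m i this]; simp
      · intro h; exact absurd hms h
    have := hli.finite
    exact not_finite ℕ

end Vale.Agent.P129
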