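import Mathlib
import Vale.Agent.P129.Hump
import Vale.Agent.P129.Quot
import Vale.Agent.P129.DR

open Set Filter Topology TopologicalSpace

namespace Vale.Agent.P129

variable {𝕜 : Type*} [RCLike 𝕜] {X : Type*} [NormedAddCommGroup X] [NormedSpace 𝕜 X]

theorem sum_sq_apply_le {ι : Type*} [Fintype ι] (f : ι → (X →L[𝕜] 𝕜))
    (hf : ∀ a : ι → 𝕜, ‖∑ i, a i • f i‖ ^ 2 ≤ ∑ i, ‖a i‖ ^ 2) (x : X) :
    ∑ i, ‖f i x‖ ^ 2 ≤ ‖x‖ ^ 2 := by
  set S : ℝ := ∑ i, ‖f i x‖ ^ 2 with hS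
  have hS0 : 0 ≤ S := Finset.sum_nonneg (fun _ _ => by positivity)
  have h1 := hf (fun i => (starRingEnd 𝕜) (f i x))
  have h2 : ∑ i, ‖(starRingEnd 𝕜) (f i x)‖ ^ 2 = S := by
    simp [hS]
  rw [h2] at h1
  have h3 : (∑ i, (starRingEnd 𝕜) (f i x) • f i) x = ((S : ℝ) : 𝕜) := by
    have h6 : (∑ i, (starRingEnd 𝕜) (f i x) • f i) x
        = ∑ i, (starRingEnd 𝕜) (f i x) * f i x := by simp
    rw [h6, hS]
    push_cast
    apply Finset.sum_congr rfl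
    intro i _
    rw [RCLike.conj_mul]
  have h4 := (∑ i, (starRingEnd 𝕜) (f i x) • f i).le_opNorm x
  rw [h3, RCLike.norm_ofReal, abs_of_nonneg hS0] at h4
  have h5 : S ^ 2 ≤ S * ‖x‖ ^ 2 := by
    calc S ^ 2 ≤ (‖∑ i, (starRingEnd 𝕜) (f i x) • f i‖ * ‖x‖) ^ 2 :=
          pow_le_pow_left₀ hS0 h4 2
      _ = ‖∑ i, (starRingEnd 𝕜) (f i x) • f i‖ ^ 2 * ‖x‖ ^ 2 := by ring
      _ ≤ S * ‖x‖ ^ 2 := mul_le_mul_of_nonneg_right h1 (by positivity)
  by_contra hcon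
  push Not at hcon
  have hSpos : 0 < S := lt_of_le_of_lt (by positivity) hcon
  nlinarith

theorem card_bad_le {ι : Type*} [Fintype ι] (f : ι → (X →L[𝕜] 𝕜))
    (hf : ∀ a : ι → 𝕜, ‖∑ i, a i • f i‖ ^ 2 ≤ ∑ i, ‖a i‖ ^ 2) (x : X) {θ : ℝ} (hθ : 0 < θ)
    (S : Finset ι) (hS : ∀ i ∈ S, θ < ‖f i x‖) :
    (S.card : ℝ) * θ ^ 2 ≤ ‖x‖ ^ 2 := by
  calc (S.card : ℝ) * θ ^ 2 = ∑ i ∈ S, θ ^ 2 := by simp
    _ ≤ ∑ i ∈ S, ‖f i x‖ ^ 2 := by
      apply Finset.sum_le_sum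
      intro i hi
      exact pow_le_pow_left₀ hθ.le (hS i hi).le 2
    _ ≤ ∑ i, ‖f i x‖ ^ 2 :=
      Finset.sum_le_sum_of_subset_of_nonneg (Finset.subset_univ _) (fun _ _ _ => by positivity)
    _ ≤ ‖x‖ ^ 2 := sum_sq_apply_le f hf x

theorem dvoretzky_rogers' {Y : Type*} [NormedAddCommGroup Y] [NormedSpace 𝕜 Y]
    (hinf : ¬ FiniteDimensional 𝕜 Y) (ι : Type*) [Fintype ι] :
    ∃ f : ι → Y, (∀ i, 2 / 5 ≤ ‖f i‖) ∧
      ∀ a : ι → 𝕜, ‖∑ i, a i • f i‖ ^ 2 ≤ ∑ i, ‖a i‖ ^ 2 := by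
  obtain ⟨f, hf1, hf2⟩ := dvoretzky_rogers hinf (Fintype.card ι)
  let e := Fintype.equivFin ι
  refine ⟨fun i => f (e i), fun i => hf1 _, fun a => ?_⟩
  have h1 := hf2 (fun i => a (e.symm i))
  have h2 : ∑ i, a (e.symm i) • f i = ∑ i, a i • f (e i) := by
    rw [← e.sum_comp]; simp
  have h3 : ∑ i, ‖a (e.symm i)‖ ^ 2 = ∑ i, ‖a i‖ ^ 2 := by
    rw [← e.sum_comp]; simp
  rw [h2, h3] at h1
  exact h1

theorem dual_not_finiteDimensional (hinf : ¬ FiniteDimensional 𝕜 X) :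
    ¬ FiniteDimensional 𝕜 (X →L[𝕜] 𝕜) := by
  intro h
  apply hinf
  let b := Module.finBasis 𝕜 (X →L[𝕜] 𝕜)
  let J : X →ₗ[𝕜] (Fin (Module.finrank 𝕜 (X →L[𝕜] 𝕜)) → 𝕜) :=
    LinearMap.pi (fun i => (b i).toLinearMap)
  have hJ : Function.Injective J := by
    rw [← LinearMap.ker_eq_bot, LinearMap.ker_eq_bot']
    intro x hx
    have h1 : ∀ i, b i x = 0 := fun i => congrFun hx i
    by_contra hne
    have hne' : ‖x‖ ≠ 0 := norm_ne_zero_iff.2 hne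
    obtain ⟨g, -, hg⟩ := exists_dual_vector 𝕜 x hne'
    have h2 : g x = 0 := by
      have h3 : g = ∑ i, b.repr g i • b i := (b.sum_repr g).symm
      have h4 : (∑ i, b.repr g i • b i) x = ∑ i, b.repr g i * b i x := by
        simp only [sum_apply]
        apply Finset.sum_congr rfl
        intro i _
        rfl
      rw [h3, h4]
      simp [h1]
    rw [h2] at hg
    have : (‖x‖ : 𝕜) ≠ 0 := by
      simpa using hne
    exact this hg.symm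
  exact FiniteDimensional.of_injective J hJ

theorem exists_code {h : ℕ} {c : Fin h → ℕ} (hc : ∀ j, 0 < c j)
    (S : Finset (∀ j : Fin h, Fin (c j))) (hS : S.card ≤ h) :
    ∃ G : Fin h → ℕ, (∀ j, G j < c j) ∧ ∀ τ ∈ S, ∃ j, (τ j).val = G j := by
  classical
  obtain ⟨e⟩ : Nonempty (S ↪ Fin h) := by
    apply Function.Embedding.nonempty_of_card_le
    simpa using hS
  refine ⟨fun j => if hj : ∃ τ : S, e τ = j then (hj.choose.1 j).val else 0, ?_, ?_⟩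
  · intro j
    by_cases hj : ∃ τ : S, e τ = j
    · simp only [hj, dif_pos]; exact (hj.choose.1 j).2
    · simp only [hj, dif_neg, not_false_eq_true]; exact hc j
  · intro τ hτ
    refine ⟨e ⟨τ, hτ⟩, ?_⟩
    have hj : ∃ τ' : S, e τ' = e ⟨τ, hτ⟩ := ⟨_, rfl⟩
    have h1 : hj.choose = ⟨τ, hτ⟩ := e.injective hj.choose_spec
    simp only [hj, dif_pos]
    rw [h1]

theorem exists_functionals (hinf : ¬ FiniteDimensional 𝕜 X) (D : Set X) (b : ℕ → ℕ)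
    (hb : ∀ n, 0 < b n)
    (hy : ∀ g : D → ℕ → ℕ, (∀ x n, g x n < b n) →
      ∃ y : ℕ → ℕ, (∀ n, y n < b n) ∧ ∀ x, ∀ᶠ n in atTop, g x n ≠ y n) :
    ∃ u : ℕ → (X →L[𝕜] 𝕜), (∀ k : ℕ, 2 / 5 * ((k : ℝ) + 1) ≤ ‖u k‖) ∧
      ∀ x ∈ D, Tendsto (fun k => u k x) atTop (𝓝 0) := by
  classical
  have hdual := dual_not_finiteDimensional (𝕜 := 𝕜) hinf
  let h : ℕ → ℕ := fun k => (k + 1) ^ 5
  let T : ℕ → Type := fun k => ∀ j : Fin (h k), Fin (b (Nat.pair k j))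
  have hDR : ∀ k, ∃ f : T k → (X →L[𝕜] 𝕜), (∀ i, 2 / 5 ≤ ‖f i‖) ∧
      ∀ a : T k → 𝕜, ‖∑ i, a i • f i‖ ^ 2 ≤ ∑ i, ‖a i‖ ^ 2 := fun k =>
    dvoretzky_rogers' hdual (T k)
  choose f hf1 hf2 using hDR
  let θ : ℕ → ℝ := fun k => 1 / ((k : ℝ) + 1) ^ 2
  have hθ : ∀ k, 0 < θ k := fun k => by positivity
  let S : X → ∀ k, Finset (T k) := fun x k => Finset.univ.filter (fun i => θ k < ‖f k i x‖)
  have hcard : ∀ x : X, ∀ k : ℕ, ‖x‖ ^ 2 ≤ (k : ℝ) + 1 → (S x k).card ≤ h k := by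
    intro x k hk
    have h1 := card_bad_le (f k) (hf2 k) x (hθ k) (S x k)
      (fun i hi => (Finset.mem_filter.1 hi).2)
    have hk1 : (0 : ℝ) < (k : ℝ) + 1 := by positivity
    have h2 : ((S x k).card : ℝ) ≤ ((k : ℝ) + 1) ^ 5 := by
      have h3 : ((S x k).card : ℝ) * (1 / ((k : ℝ) + 1) ^ 2) ^ 2 ≤ (k : ℝ) + 1 := h1.trans hk
      have h4 : ((S x k).card : ℝ) * (1 / ((k : ℝ) + 1) ^ 2) ^ 2
          = ((S x k).card : ℝ) / ((k : ℝ) + 1) ^ 4 := by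
        field_simp
      rw [h4, div_le_iff₀ (by positivity)] at h3
      calc ((S x k).card : ℝ) ≤ ((k : ℝ) + 1) * ((k : ℝ) + 1) ^ 4 := h3
        _ = ((k : ℝ) + 1) ^ 5 := by ring
    have h5 : ((S x k).card : ℝ) ≤ ((h k : ℕ) : ℝ) := by
      simp only [h]; push_cast; exact h2
    exact_mod_cast h5
  have hG : ∀ (x : X) (k : ℕ), ∃ G : Fin (h k) → ℕ, (∀ j, G j < b (Nat.pair k j)) ∧
      ((S x k).card ≤ h k → ∀ τ ∈ S x k, ∃ j, (τ j).val = G j) := by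
    intro x k
    by_cases hc : (S x k).card ≤ h k
    · obtain ⟨G, hG1, hG2⟩ := exists_code (c := fun j : Fin (h k) => b (Nat.pair k j))
        (fun j => hb _) (S x k) hc
      exact ⟨G, hG1, fun _ => hG2⟩
    · exact ⟨fun _ => 0, fun j => hb _, fun h' => absurd h' hc⟩
  choose G hG1 hG2 using hG
  let g : D → ℕ → ℕ := fun x n =>
    if hn : (Nat.unpair n).2 < h (Nat.unpair n).1 then G x.1 (Nat.unpair n).1 ⟨_, hn⟩ else 0
  have hgb : ∀ x n, g x n < b n := by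
    intro x n
    by_cases hn : (Nat.unpair n).2 < h (Nat.unpair n).1
    · simp only [g, hn, dif_pos]
      have := hG1 x.1 (Nat.unpair n).1 ⟨_, hn⟩
      simpa using this
    · simp only [g, hn, dif_neg, not_false_eq_true]
      exact hb n
  have hgp : ∀ (x : D) (k : ℕ) (j : Fin (h k)), g x (Nat.pair k j) = G x.1 k j := by
    intro x k j
    have key : ∀ (a c : ℕ) (ha : a = k) (hc : c = j.val) (hn : c < h a),
        G x.1 a ⟨c, hn⟩ = G x.1 k j := by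
      intro a c ha hc hn
      subst ha; subst hc; rfl
    have hlt : (Nat.unpair (Nat.pair k j)).2 < h (Nat.unpair (Nat.pair k j)).1 := by
      simp
    simp only [g, hlt, dif_pos]
    exact key _ _ (by simp) (by simp) _
  obtain ⟨y, hy1, hy2⟩ := hy g hgb
  let t : ∀ k, T k := fun k j => ⟨y (Nat.pair k j), hy1 _⟩
  refine ⟨fun k : ℕ => (((k : ℝ) + 1 : ℝ) : 𝕜) • f k (t k), fun k => ?_, fun x hx => ?_⟩
  · rw [norm_smul, RCLike.norm_ofReal, abs_of_pos (by positivity)]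
    have := hf1 k (t k)
    nlinarith [hf1 k (t k), (by positivity : (0 : ℝ) < (k : ℝ) + 1)]
  · obtain ⟨N, hN⟩ := eventually_atTop.1 (hy2 ⟨x, hx⟩)
    obtain ⟨N2, hN2⟩ := exists_nat_ge (‖x‖ ^ 2)
    rw [tendsto_zero_iff_norm_tendsto_zero]
    refine squeeze_zero' (Eventually.of_forall fun _ => norm_nonneg _) ?_
      tendsto_one_div_add_atTop_nhds_zero_nat
    filter_upwards [eventually_ge_atTop N, eventually_ge_atTop N2] with k hk hk2
    have hc : (S x k).card ≤ h k := by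
      apply hcard
      have : (N2 : ℝ) ≤ (k : ℝ) := by exact_mod_cast hk2
      linarith
    have hnot : t k ∉ S x k := by
      intro hmem
      obtain ⟨j, hj⟩ := hG2 x k hc (t k) hmem
      have h1 : N ≤ Nat.pair k j := hk.trans (Nat.left_le_pair _ _)
      have h2 := hN _ h1
      apply h2
      rw [hgp ⟨x, hx⟩ k j]
      exact hj.symm
    have hle : ‖f k (t k) x‖ ≤ θ k := by
      by_contra hcon
      push Not at hcon
      exact hnot (Finset.mem_filter.2 ⟨Finset.mem_univ _, hcon⟩)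
    have hk1 : (0 : ℝ) < (k : ℝ) + 1 := by positivity
    have h3 : ‖((((k : ℝ) + 1 : ℝ) : 𝕜) • f k (t k)) x‖ = ((k : ℝ) + 1) * ‖f k (t k) x‖ := by
      have h4 : ((((k : ℝ) + 1 : ℝ) : 𝕜) • f k (t k)) x
          = (((k : ℝ) + 1 : ℝ) : 𝕜) • (f k (t k) x) := rfl
      rw [h4, norm_smul, RCLike.norm_ofReal, abs_of_pos hk1]
    rw [h3]
    calc ((k : ℝ) + 1) * ‖f k (t k) x‖ ≤ ((k : ℝ) + 1) * θ k :=
          mul_le_mul_of_nonneg_left hle hk1.le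
      _ = 1 / ((k : ℝ) + 1) := by simp only [θ]; field_simp

theorem exists_separable_quotient [CompleteSpace X] (hinf : ¬ FiniteDimensional 𝕜 X)
    (D : Set X) (hD : Dense D) (b : ℕ → ℕ) (hb : ∀ n, 0 < b n)
    (hy : ∀ g : D → ℕ → ℕ, (∀ x n, g x n < b n) →
      ∃ y : ℕ → ℕ, (∀ n, y n < b n) ∧ ∀ x, ∀ᶠ n in atTop, g x n ≠ y n) :
    ∃ M : Submodule 𝕜 X, IsClosed (M : Set X) ∧ SeparableSpace (X ⧸ M) ∧
      ¬ FiniteDimensional 𝕜 (X ⧸ M) := by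
  obtain ⟨u, hu1, hu2⟩ := exists_functionals (𝕜 := 𝕜) hinf D b hb hy
  let E : Submodule 𝕜 X := Submodule.span 𝕜 D
  have hE : Dense (E : Set X) := hD.mono Submodule.subset_span
  have hu : ∀ x ∈ E, Tendsto (fun k => u k x) atTop (𝓝 0) := by
    intro x hx
    induction hx using Submodule.span_induction with
    | mem x hx => exact hu2 x hx
    | zero => simp
    | add x y _ _ hx hy => simpa using hx.add hy
    | smul a x _ hx => simpa using hx.const_smul a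
  have hunb : ¬ ∃ C : ℝ, ∀ k, ‖u k‖ ≤ C := by
    rintro ⟨C, hC⟩
    obtain ⟨k, hk⟩ := exists_nat_gt (5 / 2 * C)
    have h1 := hu1 k
    have h2 := hC k
    linarith
  obtain ⟨κ, x, hxE, hx1, hx2, hx3, hx4⟩ := exists_system E hE u hu hunb
  refine exists_quotient E hE (fun j => u (κ j)) x ?_ hx1 hx2 hx3 hx4
  intro y hy
  obtain ⟨C, hC⟩ := (hu y hy).norm.bddAbove_range
  exact ⟨C, fun j => hC ⟨κ j, rfl⟩⟩

end Vale.Agent.P129
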