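import Mathlib
import Vale.Agent.P129.Select
import Vale.Agent.P129.Defs

open Set Filter Topology TopologicalSpace MeasureTheory Cardinal

universe u v

namespace Vale.Agent.P129

theorem exists_avoid (b : ℕ → ℕ) (F : Set (ℕ → ℕ)) (hF : ∀ f ∈ F, ∀ k, f k < b k)
    (hcard : #F < evDiff b) :
    ∃ y : ℕ → ℕ, (∀ k, y k < b k) ∧ ∀ f ∈ F, ∀ᶠ k in atTop, f k ≠ y k := by
  by_contra hcon
  push Not at hcon
  have hmem : #F ∈ {κ : Cardinal.{0} | ∃ F : Set (ℕ → ℕ), #F = κ ∧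
      (∀ f ∈ F, ∀ k, f k < b k) ∧
      ∀ y : ℕ → ℕ, (∀ k, y k < b k) → ∃ f ∈ F, ∃ᶠ k in atTop, f k = y k} := by
    refine ⟨F, rfl, hF, fun y hy => ?_⟩
    obtain ⟨f, hf, h⟩ := hcon y hy
    refine ⟨f, hf, ?_⟩
    intro hev
    apply h
    filter_upwards [hev] with k hk using hk
  exact absurd (csInf_le' hmem) (not_le.2 hcard)

theorem pos_of_lt_evDiff (b : ℕ → ℕ) (κ : Cardinal.{0}) (h : κ < evDiff b) (n : ℕ) : 0 < b n := by
  by_contra hcon
  have hb : b n = 0 := by omega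
  have hmem : (0 : Cardinal.{0}) ∈ {κ : Cardinal.{0} | ∃ F : Set (ℕ → ℕ), #F = κ ∧
      (∀ f ∈ F, ∀ k, f k < b k) ∧
      ∀ y : ℕ → ℕ, (∀ k, y k < b k) → ∃ f ∈ F, ∃ᶠ k in atTop, f k = y k} := by
    refine ⟨∅, by simp, by simp, fun y hy => ?_⟩
    have := hy n
    omega
  have h1 : evDiff b ≤ 0 := csInf_le' hmem
  exact absurd (h.trans_le h1) (not_lt.2 (zero_le))

theorem null_frequently (f : ℕ → ℕ) :
    volume {t : ℝ | ∃ᶠ k in atTop, f k = ⌊(2 : ℝ) ^ (k + 1) * Int.fract t⌋₊} = 0 := by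
  set N := {t : ℝ | ∃ᶠ k in atTop, f k = ⌊(2 : ℝ) ^ (k + 1) * Int.fract t⌋₊} with hN
  have hloc : ∀ z : ℤ, volume (N ∩ Ico (z : ℝ) (z + 1)) = 0 := by
    intro z
    rw [← Measure.restrict_apply' measurableSet_Ico]
    apply measure_setOfPred_frequently_eq_zero
    have hle : ∀ k : ℕ, (volume.restrict (Ico (z : ℝ) (z + 1)))
        {t : ℝ | f k = ⌊(2 : ℝ) ^ (k + 1) * Int.fract t⌋₊} ≤ ENNReal.ofReal ((1 / 2 : ℝ) ^ (k + 1)) := by
      intro k
      rw [Measure.restrict_apply' measurableSet_Ico]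
      have hsub : {t : ℝ | f k = ⌊(2 : ℝ) ^ (k + 1) * Int.fract t⌋₊} ∩ Ico (z : ℝ) (z + 1) ⊆
          Icc ((z : ℝ) + f k * (1 / 2 : ℝ) ^ (k + 1)) ((z : ℝ) + (f k + 1) * (1 / 2 : ℝ) ^ (k + 1)) := by
        rintro t ⟨ht1, ht2⟩
        have ht1' : f k = ⌊(2 : ℝ) ^ (k + 1) * Int.fract t⌋₊ := ht1
        have hfl : ⌊t⌋ = z := Int.floor_eq_iff.2 ⟨ht2.1, ht2.2⟩
        have hfr : Int.fract t = t - z := by rw [Int.fract, hfl]
        have h0 : 0 ≤ (2 : ℝ) ^ (k + 1) * Int.fract t := by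
          have := Int.fract_nonneg t
          positivity
        have h1 := Nat.floor_le h0
        have h2 := Nat.lt_floor_add_one ((2 : ℝ) ^ (k + 1) * Int.fract t)
        rw [← ht1', hfr] at h1 h2
        have hp : (0 : ℝ) < (1 / 2 : ℝ) ^ (k + 1) := by positivity
        have hpp : (2 : ℝ) ^ (k + 1) * (1 / 2 : ℝ) ^ (k + 1) = 1 := by
          rw [← mul_pow]; norm_num
        constructor
        · have := mul_le_mul_of_nonneg_right h1 hp.le
          have h3 : (2 : ℝ) ^ (k + 1) * (t - z) * (1 / 2 : ℝ) ^ (k + 1) = t - z := by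
            calc (2 : ℝ) ^ (k + 1) * (t - z) * (1 / 2 : ℝ) ^ (k + 1)
                = ((2 : ℝ) ^ (k + 1) * (1 / 2 : ℝ) ^ (k + 1)) * (t - z) := by ring
              _ = t - z := by rw [hpp, one_mul]
          linarith
        · have := mul_le_mul_of_nonneg_right h2.le hp.le
          have h3 : (2 : ℝ) ^ (k + 1) * (t - z) * (1 / 2 : ℝ) ^ (k + 1) = t - z := by
            calc (2 : ℝ) ^ (k + 1) * (t - z) * (1 / 2 : ℝ) ^ (k + 1)
                = ((2 : ℝ) ^ (k + 1) * (1 / 2 : ℝ) ^ (k + 1)) * (t - z) := by ring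
              _ = t - z := by rw [hpp, one_mul]
          linarith
      refine (measure_mono hsub).trans ?_
      rw [Real.volume_Icc]
      apply ENNReal.ofReal_le_ofReal
      ring_nf
      rfl
    have hsum : ∑' k : ℕ, ENNReal.ofReal ((1 / 2 : ℝ) ^ (k + 1)) ≠ ⊤ := by
      rw [← ENNReal.ofReal_tsum_of_nonneg (fun k => by positivity)
        ((summable_nat_add_iff 1).2 (summable_geometric_of_lt_one (by norm_num) (by norm_num)))]
      exact ENNReal.ofReal_ne_top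
    exact ne_top_of_le_ne_top hsum (ENNReal.tsum_le_tsum hle)
  have hcov : N ⊆ ⋃ z : ℤ, N ∩ Ico (z : ℝ) (z + 1) := by
    intro t ht
    exact mem_iUnion.2 ⟨⌊t⌋, ht, Int.floor_le t, Int.lt_floor_add_one t⟩
  exact measure_mono_null hcov (measure_iUnion_null hloc)

theorem covNull_le_evDiff : covNull ≤ evDiff (fun k => 2 ^ (k + 1)) := by
  unfold evDiff
  apply le_csInf
  · refine ⟨_, ⟨{f | ∀ k, f k < 2 ^ (k + 1)}, rfl, fun f hf => hf, fun y hy => ⟨y, hy, ?_⟩⟩⟩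
    exact Frequently.of_forall (fun _ => rfl)
  · rintro κ ⟨F, rfl, hF, hy⟩
    have hmem : #((fun f : ℕ → ℕ =>
        {t : ℝ | ∃ᶠ k in atTop, f k = ⌊(2 : ℝ) ^ (k + 1) * Int.fract t⌋₊}) '' F) ∈
        {κ : Cardinal.{0} | ∃ G : Set (Set ℝ), #G = κ ∧ (∀ s ∈ G, volume s = 0) ∧ ⋃₀ G = Set.univ} := by
      refine ⟨_, rfl, ?_, ?_⟩
      · rintro _ ⟨f, _, rfl⟩
        exact null_frequently f
      · rw [eq_univ_iff_forall]
        intro t
        obtain ⟨f, hf, hfr⟩ := hy (fun k => ⌊(2 : ℝ) ^ (k + 1) * Int.fract t⌋₊) (by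
          intro k
          rw [Nat.floor_lt (mul_nonneg (by positivity) (Int.fract_nonneg t))]
          push_cast
          have := Int.fract_lt_one t
          have hp : (0 : ℝ) < 2 ^ (k + 1) := by positivity
          nlinarith)
        exact mem_sUnion.2 ⟨_, ⟨f, hf, rfl⟩, hfr⟩
    exact (csInf_le' hmem).trans mk_image_le

theorem main_evDiff {𝕜 : Type v} [RCLike 𝕜] {X : Type u} [NormedAddCommGroup X]
    [NormedSpace 𝕜 X] [CompleteSpace X] (hinf : ¬ FiniteDimensional 𝕜 X) (b : ℕ → ℕ)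
    (hd : density X < Cardinal.lift.{u} (evDiff b)) :
    ∃ M : Submodule 𝕜 X, IsClosed (M : Set X) ∧ SeparableSpace (X ⧸ M) ∧
      ¬ FiniteDimensional 𝕜 (X ⧸ M) := by
  have hne : {κ : Cardinal.{u} | ∃ D : Set X, Dense D ∧ #D = κ}.Nonempty :=
    ⟨_, Set.univ, dense_univ, rfl⟩
  obtain ⟨D, hD, hDc⟩ : ∃ D : Set X, Dense D ∧ #D = density X := csInf_mem hne
  rw [← hDc] at hd
  have hb : ∀ n, 0 < b n := by
    intro n
    refine pos_of_lt_evDiff b 0 ?_ n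
    by_contra h0
    have h1 : evDiff b = 0 := le_antisymm (not_lt.1 h0) (zero_le)
    rw [h1, Cardinal.lift_zero] at hd
    exact absurd hd (not_lt.2 (zero_le))
  refine exists_separable_quotient (𝕜 := 𝕜) hinf D hD b hb ?_
  intro g hg
  have hr : #(range g) < evDiff b := by
    have h1 : Cardinal.lift.{u} #(range g) ≤ Cardinal.lift.{0} #D := mk_range_le_lift
    rw [← Cardinal.lift_lt.{0, u}]
    refine lt_of_le_of_lt h1 ?_
    simpa using hd
  obtain ⟨y, hy1, hy2⟩ := exists_avoid b (range g) (by rintro _ ⟨x, rfl⟩ k; exact hg x k) hr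
  exact ⟨y, hy1, fun x => hy2 (g x) ⟨x, rfl⟩⟩

theorem main_covNull {𝕜 : Type v} [RCLike 𝕜] {X : Type u} [NormedAddCommGroup X]
    [NormedSpace 𝕜 X] [CompleteSpace X] (hinf : ¬ FiniteDimensional 𝕜 X)
    (hd : density X < Cardinal.lift.{u} covNull) :
    ∃ M : Submodule 𝕜 X, IsClosed (M : Set X) ∧ SeparableSpace (X ⧸ M) ∧
      ¬ FiniteDimensional 𝕜 (X ⧸ M) :=
  main_evDiff hinf (fun k => 2 ^ (k + 1)) (hd.trans_le (Cardinal.lift_le.2 covNull_le_evDiff))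

end Vale.Agent.P129
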